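import Crest.Agent.Helper65.Switch.Classes

/-!
# S0453, WP-B (track 2): the Johnson structure of a pair class — definitions and adjacency API

For two vertices `a ≠ b` and a graph `G`:

* `freeSet G a b` : the vertices outside `{a, b}` adjacent to exactly one of `a`, `b`;
* `toSet G a b G'` : the neighbours of `a` in `G'` inside `freeSet G a b`;
* `ofSet G a b A` : the graph obtained from `G` by making `a` adjacent to the vertices of `A`
  and `b` adjacent to the other vertices of `freeSet G a b` (everything else as in `G`).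
-/

set_option autoImplicit false

namespace Crest.Agent.Helper20.S0453

open Finset Crest.SwitchChain Crest.Agent.Helper65.Switch

variable {n : ℕ}

/-- Vertices outside `{a, b}` adjacent to exactly one of `a`, `b`. -/
noncomputable def freeSet (G : Finset (Edge n)) (a b : Fin n) : Finset (Fin n) :=
  symmDiff (nb G a) (nb G b) \ {a, b}

lemma mem_freeSet {G : Finset (Edge n)} {a b u : Fin n} :
    u ∈ freeSet G a b ↔ u ≠ a ∧ u ≠ b ∧ (adj G a u ↔ ¬ adj G b u) := by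
  unfold freeSet
  rw [Finset.mem_sdiff, Finset.mem_symmDiff, mem_nb, mem_nb, Finset.mem_insert,
    Finset.mem_singleton]
  tauto

lemma left_notMem_freeSet {G : Finset (Edge n)} {a b : Fin n} : a ∉ freeSet G a b :=
  fun h => (mem_freeSet.1 h).1 rfl

lemma right_notMem_freeSet {G : Finset (Edge n)} {a b : Fin n} : b ∉ freeSet G a b :=
  fun h => (mem_freeSet.1 h).2.1 rfl

/-- The neighbours of `a` in `G'` among the free vertices of `G`. -/
noncomputable def toSet (G : Finset (Edge n)) (a b : Fin n) (G' : Finset (Edge n)) :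
    Finset (Fin n) :=
  nb G' a ∩ freeSet G a b

lemma mem_toSet {G G' : Finset (Edge n)} {a b u : Fin n} :
    u ∈ toSet G a b G' ↔ adj G' a u ∧ u ∈ freeSet G a b := by
  unfold toSet
  rw [Finset.mem_inter, mem_nb]

lemma toSet_subset (G : Finset (Edge n)) (a b : Fin n) (G' : Finset (Edge n)) :
    toSet G a b G' ⊆ freeSet G a b :=
  Finset.inter_subset_right

/-- The graph with `a` joined to `A` and `b` joined to `freeSet G a b \ A`; all other
adjacencies as in `G`. -/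
noncomputable def ofSet (G : Finset (Edge n)) (a b : Fin n) (A : Finset (Fin n)) :
    Finset (Edge n) :=
  ofAdj (fun x y =>
    (x = a ∧ y ∈ freeSet G a b ∧ y ∈ A) ∨ (y = a ∧ x ∈ freeSet G a b ∧ x ∈ A) ∨
    (x = b ∧ y ∈ freeSet G a b ∧ y ∉ A) ∨ (y = b ∧ x ∈ freeSet G a b ∧ x ∉ A) ∨
    (adj G x y ∧ ¬ ((x = a ∨ x = b) ∧ y ∈ freeSet G a b) ∧
      ¬ ((y = a ∨ y = b) ∧ x ∈ freeSet G a b)))

lemma adj_ofSet {G : Finset (Edge n)} {a b : Fin n} {A : Finset (Fin n)} {x y : Fin n} :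
    adj (ofSet G a b A) x y ↔ x ≠ y ∧
      ((x = a ∧ y ∈ freeSet G a b ∧ y ∈ A) ∨ (y = a ∧ x ∈ freeSet G a b ∧ x ∈ A) ∨
      (x = b ∧ y ∈ freeSet G a b ∧ y ∉ A) ∨ (y = b ∧ x ∈ freeSet G a b ∧ x ∉ A) ∨
      (adj G x y ∧ ¬ ((x = a ∨ x = b) ∧ y ∈ freeSet G a b) ∧
        ¬ ((y = a ∨ y = b) ∧ x ∈ freeSet G a b))) := by
  unfold ofSet
  refine adj_ofAdj ?_
  intro x y h
  rcases h with h | h | h | h | ⟨h1, h2, h3⟩
  · exact Or.inr (Or.inl h)
  · exact Or.inl h
  · exact Or.inr (Or.inr (Or.inr (Or.inl h)))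
  · exact Or.inr (Or.inr (Or.inl h))
  · exact Or.inr (Or.inr (Or.inr (Or.inr ⟨adj_comm.1 h1, h3, h2⟩)))

/-- Adjacency of `a` in `ofSet G a b A`. -/
lemma adj_ofSet_a {G : Finset (Edge n)} {a b : Fin n} (hab : a ≠ b) {A : Finset (Fin n)}
    {u : Fin n} :
    adj (ofSet G a b A) a u ↔
      (u ∈ freeSet G a b ∧ u ∈ A) ∨ (u ∉ freeSet G a b ∧ adj G a u) := by
  have ha : a ∉ freeSet G a b := left_notMem_freeSet
  rw [adj_ofSet]
  constructor
  · rintro ⟨_, h | h | h | h | ⟨h1, h2, _⟩⟩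
    · exact Or.inl h.2
    · exact absurd h.2.1 (h.1 ▸ ha)
    · exact absurd h.1 hab
    · exact absurd h.2.1 ha
    · exact Or.inr ⟨fun hu => h2 ⟨Or.inl rfl, hu⟩, h1⟩
  · rintro (⟨hD, hA⟩ | ⟨hD, hadj⟩)
    · exact ⟨fun h => ha (h ▸ hD), Or.inl ⟨rfl, hD, hA⟩⟩
    · exact ⟨hadj.ne, Or.inr (Or.inr (Or.inr (Or.inr
        ⟨hadj, fun h => hD h.2, fun h => ha h.2⟩)))⟩

/-- Adjacency of `b` in `ofSet G a b A`. -/
lemma adj_ofSet_b {G : Finset (Edge n)} {a b : Fin n} (hab : a ≠ b) {A : Finset (Fin n)}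
    {u : Fin n} :
    adj (ofSet G a b A) b u ↔
      (u ∈ freeSet G a b ∧ u ∉ A) ∨ (u ∉ freeSet G a b ∧ adj G b u) := by
  have hb : b ∉ freeSet G a b := right_notMem_freeSet
  rw [adj_ofSet]
  constructor
  · rintro ⟨_, h | h | h | h | ⟨h1, h2, _⟩⟩
    · exact absurd h.1.symm hab
    · exact absurd h.2.1 hb
    · exact Or.inl h.2
    · exact absurd h.2.1 (h.1 ▸ hb)
    · exact Or.inr ⟨fun hu => h2 ⟨Or.inr rfl, hu⟩, h1⟩
  · rintro (⟨hD, hA⟩ | ⟨hD, hadj⟩)
    · exact ⟨fun h => hb (h ▸ hD), Or.inr (Or.inr (Or.inl ⟨rfl, hD, hA⟩))⟩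
    · exact ⟨hadj.ne, Or.inr (Or.inr (Or.inr (Or.inr
        ⟨hadj, fun h => hD h.2, fun h => hb h.2⟩)))⟩

/-- Adjacencies not involving `a` or `b` are those of `G`. -/
lemma adj_ofSet_off {G : Finset (Edge n)} {a b : Fin n} {A : Finset (Fin n)} {x y : Fin n}
    (hxa : x ≠ a) (hxb : x ≠ b) (hya : y ≠ a) (hyb : y ≠ b) :
    adj (ofSet G a b A) x y ↔ adj G x y := by
  rw [adj_ofSet]
  constructor
  · rintro ⟨_, h | h | h | h | ⟨h1, _, _⟩⟩
    · exact absurd h.1 hxa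
    · exact absurd h.1 hya
    · exact absurd h.1 hxb
    · exact absurd h.1 hyb
    · exact h1
  · intro h
    exact ⟨h.ne, Or.inr (Or.inr (Or.inr (Or.inr
      ⟨h, fun h' => h'.1.elim hxa hxb, fun h' => h'.1.elim hya hyb⟩)))⟩

end Crest.Agent.Helper20.S0453
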